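import Vale.Agent.P121.Final

/-!
# P121: disproof in `ℝ³`

There is an absolutely continuous Borel probability measure `μ` on `ℝ³` with finite Kantorovich
value for the three-particle Coulomb cost and without any optimal Monge plan.
-/

open scoped RealInnerProductSpace ENNReal
open MeasureTheory

namespace Vale.Agent.Results.P121.CoulombR3

open Vale.Agent.P121

theorem result : ∃ μ : Measure (EuclideanSpace ℝ (Fin 3)),
    IsProbabilityMeasure μ ∧
    μ ≪ (volume : Measure (EuclideanSpace ℝ (Fin 3))) ∧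
    kantorovichValue μ < ⊤ ∧
    ¬ ∃ T₂ T₃ : EuclideanSpace ℝ (Fin 3) → EuclideanSpace ℝ (Fin 3),
      IsMongePair μ T₂ T₃ ∧ mongeCost μ T₂ T₃ = kantorovichValue μ := by
  let e : EuclideanSpace ℝ (Fin 3) := EuclideanSpace.single 0 (1 : ℝ)
  let e' : EuclideanSpace ℝ (Fin 3) := EuclideanSpace.single 1 (1 : ℝ)
  have he : ‖e‖ = 1 := by simp [e]
  have he' : ‖e'‖ = 1 := by simp [e']
  have hee' : ⟪e, e'⟫ = 0 := by
    simp [e, e', EuclideanSpace.inner_single_left]
  obtain ⟨μ, hp, ⟨C, hC, hle⟩, hK, hfin, hno⟩ :=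
    Vale.Agent.P121.main (volume : Measure (EuclideanSpace ℝ (Fin 3))) e e' he he' hee'
  exact ⟨μ, hp, Measure.absolutelyContinuous_of_le_smul hle, hfin, hno⟩

end Vale.Agent.Results.P121.CoulombR3
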