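import Vale.Agent.P121.Final

/-!
# P121: an absolutely continuous measure without optimal Monge plan (three-marginal Coulomb cost)

For every dimension `d ≥ 2` (in particular for `d = 3`) there is a Borel probability measure `μ` on
`ℝ^d` which is absolutely continuous with respect to Lebesgue measure (with bounded density and
compact support), whose Kantorovich value for the three-particle Coulomb cost is finite, and which
admits no optimal Monge plan.
-/

open scoped RealInnerProductSpace ENNReal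
open MeasureTheory

namespace Vale.Agent.Results.P121.NoOptimalMonge

open Vale.Agent.P121

theorem result : ∀ d : ℕ, 2 ≤ d → ∃ μ : Measure (EuclideanSpace ℝ (Fin d)),
    IsProbabilityMeasure μ ∧
    μ ≪ (volume : Measure (EuclideanSpace ℝ (Fin d))) ∧
    (∃ C : ℝ≥0∞, C ≠ ⊤ ∧ μ ≤ C • (volume : Measure (EuclideanSpace ℝ (Fin d)))) ∧
    (∃ K : Set (EuclideanSpace ℝ (Fin d)), IsCompact K ∧ μ Kᶜ = 0) ∧
    kantorovichValue μ < ⊤ ∧
    ¬ ∃ T₂ T₃ : EuclideanSpace ℝ (Fin d) → EuclideanSpace ℝ (Fin d),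
      IsMongePair μ T₂ T₃ ∧ mongeCost μ T₂ T₃ = kantorovichValue μ := by
  intro d hd
  have h0 : 0 < d := by omega
  have h1 : 1 < d := by omega
  let e : EuclideanSpace ℝ (Fin d) := EuclideanSpace.single ⟨0, h0⟩ (1 : ℝ)
  let e' : EuclideanSpace ℝ (Fin d) := EuclideanSpace.single ⟨1, h1⟩ (1 : ℝ)
  have he : ‖e‖ = 1 := by simp [e]
  have he' : ‖e'‖ = 1 := by simp [e']
  have hee' : ⟪e, e'⟫ = 0 := by
    simp [e, e', EuclideanSpace.inner_single_left]
  obtain ⟨μ, hp, ⟨C, hC, hle⟩, hK, hfin, hno⟩ :=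
    Vale.Agent.P121.main (volume : Measure (EuclideanSpace ℝ (Fin d))) e e' he he' hee'
  refine ⟨μ, hp, ?_, ⟨C, hC, hle⟩, hK, hfin, hno⟩
  exact Measure.absolutelyContinuous_of_le_smul hle

end Vale.Agent.Results.P121.NoOptimalMonge
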